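import Vale.Agent.P154.D5.K0.Data
import Vale.Agent.P154.Check2

namespace Vale.Agent.P154.D5.K0

open Cert

/-- Chart (0, 0). -/
def P00 : Pb := chartPb false false Nd w G []

/-- Chart (0, 1). -/
def P01 : Pb := chartPb false true Nd w G []

/-- Chart (1, 0). -/
def P10 : Pb := chartPb true false Nd w G []

/-- Chart (1, 1). -/
def P11 : Pb := chartPb true true Nd w G []

/-- The offset. -/
def KK : ℕ := 77545137663665407016316356713802259703094230944415217677646222341087520567129256561489697111638815588075083598153896687860664473834063596339076061589101856670708429138282093001702303809386369216985698197392298364726406910624716273449081937852786930588873840013974613163906459398778197204069978236339381350927563177072558708687860038047529444313630840701879463350137477446762496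

end Vale.Agent.P154.D5.K0
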