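import Vale.Agent.P154.D5.K0.Charts

set_option maxRecDepth 100000

namespace Vale.Agent.P154.D5.K0

open Cert InT OutT

/-- Certificate tree. -/
def tr00_r1110100 : OutT :=
(A (B (A (B (A s s) (A (B (O (c (c l l) (c (c l l) (c (d k l) (d k (d (c k k) (d (c l (c k k)) (d (c l l) l)))))))) (O (c (c l l) (c l (c (d k l) (d k (d (c k k) (d (c l (c k k)) (c l l))))))))) (B s (O (c (c l l) (c (c l l) (c (d k l) (d k (d (c k k) (c l (d (c k k) (d (d (d l l) l) l)))))))))))) (B s (A s s))) (A (B (A (O (c (c l l) (c l (c (d k l) (d k (d (c k k) (c l (d (c k k) (d (c l (d k (d (d (d l l) l) l))) (c l l)))))))))) (B (O (c (c l l) (c l (c (d k l) (d k (d (c k k) (d (c l (c k k)) (d l l)))))))) (O (c (c l l) (c l (c (c l l) (d k (d (c k k) (d (c l (d k (d l l))) l))))))))) (A (O (c (c l l) (c l (c l (d k (d (c k k) (d (c l (c k k)) (d (d l l) l)))))))) (B (O (c (c l l) (c l (c l (d k (d (c k k) (d (d (d (c k k) l) l) l))))))) (O (c (c l l) (c l (d (c k k) (c l (d (c k k)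 (d (d l l) l)))))))))) (B (A (B (O (c (c l l) (c l (c (d k l) (d k (d (c k k) (c l (d (c k k) (d (d (d (c k k) (d l l)) l) l))))))))) (O (c (c l l) (c l (c (d k l) (d k (d (c k k) (d (c l (c k k)) (d (d l l) l))))))))) (B s (O (c (c l l) (c l (c (d k l) (d k (c (d k l) (d k (d (c k k) (d (c l (d k (d (d (d (d (c k k) l) l) l) l))) l))))))))))) (A (B (O (c (c l l) (c l (c l (d k (d (c k k) (d (c l (d k (d (d (d l l) l) l))) (c l l)))))))) (O (c (c l l) (c l (c l (d k (d (c k k) (d (d (d (c k k) (c l k)) l) l)))))))) (B (O (c (c l l) (c l (c (c l l) (d k (c (d k l) (d k (d (c k k) (d (d (d (c k k) l) l) l))))))))) (O (c (c l l) (c l (c l (d k (c (d k l) (d k (d (c k k) (d l l)))))))))))))) (B (A s s) (A (B (A s s) (A (B (O (c (c l l) (c l (c (d k l) (d k (c (d k l) (d k (d (c k k) (d (c l (c k k)) (d (d (d l l) l) l)))))))))) (O (c (c l l) (c l (c l (d k (c (d k l) (d k (d (c k k) (d (d (c l k) (c l l)) l)))))))))) (B (A s s) (A (O (c (c l l) (c l (d (c k k) (d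 (c l (c k k)) (c l l)))))) s)))) (B (A s s) (A (B s (A s s)) s)))))

theorem s00_r1110100 : Sound P00 49152 2048 49152 4096 :=
  chkOut2_sound P00 KK tr00_r1110100 49152 2048 49152 4096 (by decide +kernel)

end Vale.Agent.P154.D5.K0
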