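import Vale.Agent.P154.D5.K0.Charts

set_option maxRecDepth 100000

namespace Vale.Agent.P154.D5.K0

open Cert InT OutT

/-- Certificate tree. -/
def tr00_r11101110 : OutT :=
(B (A (B (A (B (A s s) (A (O (c (c l l) (c l (d (c k k) (d (c l (d k (d l l))) (c l l)))))) (O (c (c l l) (c l (d (c k k) (d (c l (d k (d (d (c k k) l) l))) (c l l)))))))) (B s (A s s))) (A (B (A (O (c (c l l) (c l (d (c k k) (d (d (c l k) l) l))))) (O (c (c l l) (c l (d (c k k) (d (d (c l k) (c l l)) (c l l))))))) (A (O (c (c l l) (c l (d (d k (c k k)) (d (c l l) l))))) (O (c (c l l) (c l (d (d k (d l l)) (d (c l l) l))))))) (B (A (O (c (c l l) (c l (d (c k k) (d (c l (d k l)) (c l l)))))) (O (c (c l l) (c l (d (c k k) (d (c l (d k l)) (c l l))))))) (A (O (c (c l l) (c l (d (d k (d l (c k k))) (d (d l l) l))))) (O (c (c l l) (c l (d (d k (d (c k k) (c k k))) (d (d (c l k) l) l))))))))) (B (A (B s (A s s)) s) (A (B (A (O (c (c l l) (c l (d (c k k) (d (c l (d k (c k k))) (c l l)))))) (O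 (c (c l l) (c l (d (c k k) (d (c l (d k (d (c k k) l))) (d l l))))))) (A (O (c (c l l) (c l (d (c k k) (d (d (c l k) l) l))))) (O (c (c l l) (c l (d (c k k) (d (d (c l k) l) (c l l)))))))) (B (A s s) (A (O (c (c l l) (c l (d (c k k) (d (d (c l k) (c l l)) (c l l)))))) (O (c (c l l) (c l (d (c k k) (d (c l (d k l)) (c l l))))))))))) (A (B (A (B (A (O (c (c l l) (c l (d (c k k) (d l l))))) (O (c (c l l) (c l (d (c k k) (d l l)))))) (A (O (c (c l l) (c l (d l (c l l))))) (O (c (c l l) (c l (d l (c l l))))))) (B (A (O (c (c l l) (c l (d (c k k) (d l l))))) (O (c (c l l) (c l (d (d k l) (d l l)))))) (A (O (c (c l l) (c l (d l (d l l))))) (O (c (c l l) (c l (d l (d l l)))))))) (A (B (O (c (c l l) (c l (d (d k (c k k)) (c l (d (c k k) (d (c l (d k (d (d l l) (d l l)))) (d (d (d (c l l) (c l l)) (d l l)) (d (c l l) (c l l)))))))))) (O (c (c l l) (c l (d (d k (c k k)) (c l (d (d k (d l (c k k))) (d (d (c l k) (c l l)) (d (c l l) (c l l)))))))))) (B (A (O (c (c l l)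 (c l (d l (c l l))))) (O (c (c l l) (c l (d l (c l l)))))) (A (O (c (c l l) (c l (d l l)))) (O (c (c l l) (c l (d l l)))))))) (B (A (B (A (O (c (c l l) (c l (d (d k l) (d (c l l) l))))) (O (c (c l l) (c l (d (d k l) (d (c l l) l)))))) (A (O (c (c l l) (c l (d l (d l l))))) (O (c (c l l) (c l (d l (d l l))))))) (B (A (O (c (c l l) (c l (d (d k (c k k)) (d (c l l) l))))) (O (c (c l l) (c l (d (d k (c k k)) (d (c l l) l)))))) (A (O (c (c l l) (c l (d l (d l l))))) (O (c (c l l) (c l (d (c k k) (d l l)))))))) (A (B (A (O (c (c l l) (c l (d l (c l l))))) (O (c (c l l) (c l (d l (c l l)))))) (A (O (c (c l l) (c l (d l l)))) (O (c (c l l) (c l (d l l)))))) (B (A (O (c (c l l) (c l (d l (c l l))))) (O (c (c l l) (c l (d l (d l l)))))) (A (O (c (c l l) (c l (d l l)))) (O (c (c l l) (c l (d l (c l l)))))))))))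

theorem s00_r11101110 : Sound P00 53248 1024 57344 4096 :=
  chkOut2_sound P00 KK tr00_r11101110 53248 1024 57344 4096 (by decide +kernel)

end Vale.Agent.P154.D5.K0
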